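import Vale.Agent.P119N.Final
import Vale.Agent.P119G.Defs2

namespace Vale.Agent.Results.P119.All

open Vale.Agent.P119G

theorem result (Φ : EuclideanSpace ℝ (Fin 3) → ℝ) (hΦ : IsAdm Φ)
    (hV : Repulsive Φ ∨ Superstable Φ ∨ VirialStable Φ)
    (β c a b T : ℝ) (hβ : 0 < β) (hb : 2 * β ≤ b) (hc : 0 < c) (ha : 0 < a) (hT : 0 < T)
    (h1 : ∫ z : EuclideanSpace ℝ (Fin 3) × EuclideanSpace ℝ (Fin 3), gau c a b 0 z = 1) :
    (∀ S, IsScatMap Φ S → Regular S β (gau c a b 0) T (gau c a b) ∧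
      ∀ f, Regular S β (gau c a b 0) T f → Chaos Φ (gau c a b 0) T f) ∧
    ∀ (M : ℝ) (s : ℕ), 1 ≤ s → ∃ C : ℝ, ∀ S δ f₀ f, IsScatMap Φ S → Near c a b δ f₀ →
      RegularB S β f₀ T f M → Close Φ f₀ T f s C (C * Real.sqrt δ) :=
  ⟨fun S hS => Vale.Agent.P119.final Φ hΦ hV S hS β c a b T hβ hb hc ha h1,
    Vale.Agent.P119.finalN Φ hΦ hV β c a b T hβ hb hc ha h1 hT⟩

end Vale.Agent.Results.P119.All
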