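import Vale.Agent.P119S.Final
import Vale.Agent.P119G.Defs

namespace Vale.Agent.Results.P119.Attractive

open Vale.Agent.P119G

theorem result (Φ : EuclideanSpace ℝ (Fin 3) → ℝ) (hΦ : IsAdm Φ)
    (hV : Repulsive Φ ∨ Superstable Φ ∨ VirialStable Φ)
    (S : EuclideanSpace ℝ (Fin 3) → EuclideanSpace ℝ (Fin 3) → EuclideanSpace ℝ (Fin 3))
    (hS : IsScatMap Φ S) (β c a b T : ℝ) (hβ : 0 < β) (hb : 2 * β ≤ b) (hc : 0 < c) (ha : 0 < a)
    (h1 : ∫ z : EuclideanSpace ℝ (Fin 3) × EuclideanSpace ℝ (Fin 3), gau c a b 0 z = 1) :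
    Regular S β (gau c a b 0) T (gau c a b) ∧
      ∀ f, Regular S β (gau c a b 0) T f → Chaos Φ (gau c a b 0) T f :=
  Vale.Agent.P119.final Φ hΦ hV S hS β c a b T hβ hb hc ha h1

end Vale.Agent.Results.P119.Attractive
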